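import Vale.Agent.P290.R2.H596.Spec2

/-! J4, local part: a map `Fib F t → X` in the trivialisation at `x` and in a chart of `X`. -/

open Set Filter Metric
open scoped Topology Manifold ContDiff

namespace Vale.Agent.P290.R2.H760

open Vale.Agent.P290 Vale.Agent.P290.K Vale.Agent.P290.H580 Vale.Agent.P290.H805
open Vale.Agent.P290.R2.H596

theorem trans_diff (X : All.K3) {c e : OpenPartialHomeomorph X.X All.C2}
    (hc : c ∈ atlas All.C2 X.X) (he : e ∈ atlas All.C2 X.X) {q : X.X} (h1 : q ∈ c.source)
    (h2 : q ∈ e.source) : DifferentiableAt ℂ (fun u => e (c.symm u)) (c q) := by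
  have := X.manifold
  have h3 : c.symm ≫ₕ e ∈ contDiffGroupoid ω 𝓘(ℂ, All.C2) := HasGroupoid.compatible hc he
  have h4 := contMDiffOn_iff_contDiffOn.1 (contMDiffOn_of_mem_contDiffGroupoid h3)
  have h5 : c q ∈ (c.symm ≫ₕ e).source := by
    simp only [mfld_simps]
    exact ⟨c.map_source h1, by rwa [c.left_inv h1]⟩
  exact (h4.contDiffAt ((c.symm ≫ₕ e).open_source.mem_nhds h5)).differentiableAt (by simp)

theorem det_comp3 (A B C : C2 →L[ℂ] C2) : (A.comp (B.comp C)).det = A.det * (B.det * C.det) := by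
  simp only [ContinuousLinearMap.det, ContinuousLinearMap.toLinearMap_comp, LinearMap.det_comp]

variable {T E : Type} [TopologicalSpace T] [TopologicalSpace E]

open Classical in
/-- the point of the fibre over `t` with the coordinate `w` in the trivialisation at `x` -/
noncomputable def pt (F : Family T E) (t : T) (y₀ : Fib F t) (x : E) (w : C2) : Fib F t :=
  if h : (t, w) ∈ (F.triv x).target then ⟨(F.triv x).symm (t, w), F.p_symm x h⟩ else y₀

theorem pt_val (F : Family T E) {t : T} (y₀ : Fib F t) {x : E} {w : C2}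
    (h : (t, w) ∈ (F.triv x).target) : (pt F t y₀ x w).1 = (F.triv x).symm (t, w) := by
  rw [pt, dif_pos h]

theorem pt_cont (F : Family T E) {t : T} (y₀ : Fib F t) {x : E} {w : C2}
    (h : (t, w) ∈ (F.triv x).target) : ContinuousAt (pt F t y₀ x) w := by
  rw [isInducing_val.continuousAt_iff]
  have hc : ContinuousAt (fun u : C2 => ((t, u) : T × C2)) w :=
    continuousAt_const.prodMk continuousAt_id
  have h1 : ContinuousAt (fun u : C2 => (F.triv x).symm (t, u)) w :=
    ContinuousAt.comp (g := (F.triv x).symm) (f := fun u : C2 => ((t, u) : T × C2))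
      ((F.triv x).continuousAt_symm h) hc
  refine h1.congr ?_
  filter_upwards [hc.eventually ((F.triv x).open_target.mem_nhds h)] with u hu
  exact (pt_val F y₀ hu).symm

/-- the derivative of `b` in arbitrary charts -/
theorem local_ratio {F : Family T E} {vol : E → T × C2 → ℂ} (hvol : RelForm F vol) {t : T}
    {X : All.K3} {b : Fib F t → X.X} (hb : ∀ y, All.Hol b y) {lam : ℂ}
    (hlam : ∀ y, Ratio F vol t X b y lam) (y₀ : Fib F t) {x : E} {w : C2}
    (h : (t, w) ∈ (F.triv x).target) {e : OpenPartialHomeomorph X.X C2}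
    (he : e ∈ atlas C2 X.X) (hs : b (pt F t y₀ x w) ∈ e.source) :
    DifferentiableAt ℂ (fun u => e (b (pt F t y₀ x u))) w ∧
      X.vol e (e (b (pt F t y₀ x w))) *
        (fderiv ℂ (fun u => e (b (pt F t y₀ x u))) w).det = lam * vol x (t, w) := by
  set y := pt F t y₀ x w with hy
  have hyv : y.1 = (F.triv x).symm (t, w) := pt_val F y₀ h
  set c := chartAt C2 (b y) with hc
  have hcm : c ∈ atlas C2 X.X := chart_mem_atlas C2 (b y)
  have hcs : b y ∈ c.source := mem_chart_source C2 (b y)
  set k := chartAt C2 y with hk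
  -- the three maps
  set A : C2 → C2 := fun u => e (c.symm u) with hA
  set B : C2 → C2 := fun u => c (b (k.symm u)) with hB
  set C : C2 → C2 := fun u => (F.triv y.1 ((F.triv x).symm (t, u))).2 with hC
  have hys : (F.triv x).symm (t, w) ∈ (F.triv y.1).source := by
    rw [← hyv]; exact F.mem y.1
  have kval : ∀ z : Fib F t, k z = (F.triv y.1 z.1).2 := fun z => rfl
  have hCw : C w = k y := by
    rw [kval, hC, hyv]
  have dC : DifferentiableAt ℂ C w := (F.hol x y.1 t w h hys).differentiableAt (by simp)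
  have dB : DifferentiableAt ℂ B (k y) := (hb y).2
  have dA : DifferentiableAt ℂ A (c (b y)) := trans_diff X hcm he hcs hs
  have hks : y ∈ k.source := mem_chart_source C2 y
  have hBk : B (k y) = c (b y) := by rw [hB]; simp only; rw [k.left_inv hks]
  have cpt := pt_cont F y₀ h
  -- the composition
  have hcomp : (fun u => e (b (pt F t y₀ x u))) =ᶠ[𝓝 w] fun u => A (B (C u)) := by
    have e1 : ∀ᶠ u in 𝓝 w, pt F t y₀ x u ∈ k.source :=
      cpt.eventually (k.open_source.mem_nhds hks)
    have cb : ContinuousAt (fun u => b (pt F t y₀ x u)) w :=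
      ContinuousAt.comp (g := b) (f := pt F t y₀ x) (hb _).1 cpt
    have e2 : ∀ᶠ u in 𝓝 w, b (pt F t y₀ x u) ∈ c.source :=
      cb.eventually (c.open_source.mem_nhds hcs)
    have hc0 : ContinuousAt (fun u : C2 => ((t, u) : T × C2)) w :=
      continuousAt_const.prodMk continuousAt_id
    have e3 : ∀ᶠ u in 𝓝 w, (t, u) ∈ (F.triv x).target :=
      hc0.eventually ((F.triv x).open_target.mem_nhds h)
    filter_upwards [e1, e2, e3] with u h1 h2 h3
    have h4 : C u = k (pt F t y₀ x u) := by
      rw [kval, pt_val F y₀ h3]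
    rw [h4]
    simp only [hA, hB]
    rw [k.left_inv h1, c.left_inv h2]
  have dBC : HasFDerivAt (fun u => B (C u)) ((fderiv ℂ B (k y)).comp (fderiv ℂ C w)) w := by
    have h1 : HasFDerivAt B (fderiv ℂ B (k y)) (C w) := by rw [hCw]; exact dB.hasFDerivAt
    exact h1.comp w dC.hasFDerivAt
  have dABC : HasFDerivAt (fun u => A (B (C u)))
      ((fderiv ℂ A (c (b y))).comp ((fderiv ℂ B (k y)).comp (fderiv ℂ C w))) w := by
    have h1 : HasFDerivAt A (fderiv ℂ A (c (b y))) (B (C w)) := by
      rw [hCw, hBk]; exact dA.hasFDerivAt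
    exact h1.comp w dBC
  have hd := dABC.congr_of_eventuallyEq hcomp
  refine ⟨hd.differentiableAt, ?_⟩
  rw [hd.fderiv, det_comp3]
  -- the three transformation rules
  have r1 : X.vol c (c (b y)) = X.vol e (e (b y)) * (fderiv ℂ A (c (b y))).det := by
    have h1 := ((X.holo c hcm).2 (c (b y)) (c.map_source hcs)).2 e he
      (by rw [c.left_inv hcs]; exact hs)
    rw [c.left_inv hcs] at h1
    exact h1
  have r2 : X.vol c (c (b y)) * (fderiv ℂ B (k y)).det =
      lam * vol y.1 (t, (F.triv y.1 y.1).2) := hlam y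
  have r3 : vol x (t, w) = vol y.1 (t, (F.triv y.1 y.1).2) * (fderiv ℂ C w).det := by
    have h1 := (hvol x t w h).2.2.2 y.1 hys
    rw [h1]
    congr 2
    rw [← hyv]
  rw [r3, ← mul_assoc lam, ← r2, r1]
  ring

end Vale.Agent.P290.R2.H760
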