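import Vale.Agent.P290.R2.H760.Local
import Mathlib.MeasureTheory.Function.Jacobian
import Mathlib.MeasureTheory.Measure.Haar.NormedSpace
import Mathlib.RingTheory.Complex

/-! J4: comparison of volumes. -/

open Set Filter Metric
open scoped Topology Manifold ContDiff

namespace Vale.Agent.P290.R2.H760

open Vale.Agent.P290 Vale.Agent.P290.K Vale.Agent.P290.H580 Vale.Agent.P290.H805
open Vale.Agent.P290.R2.H596

theorem volume_haar : (MeasureTheory.volume : MeasureTheory.Measure C2).IsAddHaarMeasure :=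
  MeasureTheory.Measure.prod.instIsAddHaarMeasure (MeasureTheory.volume : MeasureTheory.Measure ℂ)
    (MeasureTheory.volume : MeasureTheory.Measure ℂ)

theorem det_real (L : C2 →L[ℂ] C2) : |(L.restrictScalars ℝ).det| = ‖L.det‖ ^ 2 := by
  have h : (L.restrictScalars ℝ).det = ‖L.det‖ ^ 2 := by
    rw [← Complex.normSq_eq_norm_sq]
    change LinearMap.det ((L : C2 →ₗ[ℂ] C2).restrictScalars ℝ) = _
    rw [LinearMap.det_restrictScalars, Algebra.norm_complex_apply]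
  rw [h, abs_of_nonneg (by positivity)]

/-- the measure of a set which is covered by finitely many images -/
theorem measure_part {ι : Type} (τ : Finset ι) (S : ι → Set C2) (hS : ∀ i ∈ τ, IsOpen (S i))
    (f : ι → C2 → C2) (v : ι → C2) (r : ι → ℝ) (hsub : ∀ i ∈ τ, S i ⊆ ball (v i) (r i))
    (hf : ∀ i ∈ τ, ∀ w ∈ S i, DifferentiableAt ℂ (f i) w) {K : ℝ}
    (hdet : ∀ i ∈ τ, ∀ w ∈ S i, ‖(fderiv ℂ (f i) w).det‖ ≤ K) (B : Set C2)
    (hB : B ⊆ ⋃ i ∈ τ, f i '' S i) :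
    MeasureTheory.volume B ≤
      ENNReal.ofReal (K ^ 2) * ∑ i ∈ τ, MeasureTheory.volume (ball (v i) (r i)) := by
  have := volume_haar
  refine (MeasureTheory.measure_mono hB).trans ?_
  refine (MeasureTheory.measure_biUnion_finset_le τ _).trans ?_
  rw [Finset.mul_sum]
  refine Finset.sum_le_sum fun i hi => ?_
  have h1 := MeasureTheory.addHaar_image_le_lintegral_abs_det_fderiv (MeasureTheory.volume :
    MeasureTheory.Measure C2) (s := S i) (f := f i)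
    (f' := fun w => (fderiv ℂ (f i) w).restrictScalars ℝ) (hS i hi).measurableSet
    (fun w hw => ((hf i hi w hw).hasFDerivAt.restrictScalars ℝ).hasFDerivWithinAt)
  refine h1.trans ?_
  calc ∫⁻ w in S i, ENNReal.ofReal |((fderiv ℂ (f i) w).restrictScalars ℝ).det|
      ≤ ∫⁻ _w in S i, ENNReal.ofReal (K ^ 2) := by
        refine MeasureTheory.setLIntegral_mono measurable_const fun w hw => ?_
        refine ENNReal.ofReal_le_ofReal ?_
        rw [det_real]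
        exact pow_le_pow_left₀ (norm_nonneg _) (hdet i hi w hw) 2
    _ = ENNReal.ofReal (K ^ 2) * MeasureTheory.volume (S i) := by
        rw [MeasureTheory.setLIntegral_const]
    _ ≤ ENNReal.ofReal (K ^ 2) * MeasureTheory.volume (ball (v i) (r i)) := by
        gcongr
        exact hsub i hi

theorem lower : StLower := by
  classical
  intro T E _ _ F hp vol hvol t₀ X
  have hsc := X.sc
  obtain ⟨q⟩ : Nonempty X.X := inferInstance
  set e := chartAt C2 q with hedef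
  have he : e ∈ atlas C2 X.X := chart_mem_atlas C2 q
  have hqs : q ∈ e.source := mem_chart_source C2 q
  set p0 := e q with hp0def
  have hp0 : p0 ∈ e.target := e.map_source hqs
  set m : ℝ := ‖X.vol e p0‖ / 2 with hm
  have hv0 : 0 < ‖X.vol e p0‖ := norm_pos_iff.2 ((X.holo e he).2 p0 hp0).1
  have hm0 : 0 < m := by positivity
  -- a small ball
  obtain ⟨r0, hr0, hball⟩ : ∃ r0 > 0, ∀ z ∈ ball p0 r0, z ∈ e.target ∧ m ≤ ‖X.vol e z‖ := by
    have h1 : ContinuousAt (X.vol e) p0 :=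
      ((X.holo e he).1.continuousOn).continuousAt (e.open_target.mem_nhds hp0)
    have h2 : ∀ᶠ z in 𝓝 p0, m < ‖X.vol e z‖ :=
      h1.norm.eventually (lt_mem_nhds (by rw [hm]; linarith))
    have h3 : ∀ᶠ z in 𝓝 p0, z ∈ e.target ∧ m ≤ ‖X.vol e z‖ := by
      filter_upwards [e.open_target.mem_nhds hp0, h2] with z h4 h5 using ⟨h4, h5.le⟩
    obtain ⟨r0, hr0, h4⟩ := Metric.eventually_nhds_iff_ball.1 h3
    exact ⟨r0, hr0, h4⟩
  -- charts of the fibre
  have hx : ∀ x : F.p ⁻¹' {t₀}, ∃ A ∈ 𝓝 t₀, ∃ r > (0 : ℝ), ∃ M : ℝ, 0 ≤ M ∧ ∀ t ∈ A,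
      ∀ w ∈ ball (F.triv x.1 x.1).2 r, (t, w) ∈ (F.triv x.1).target ∧ ‖vol x.1 (t, w)‖ ≤ M := by
    rintro ⟨x, hx⟩
    have hx' : F.p x = t₀ := hx
    have h1 : F.triv x x = (t₀, (F.triv x x).2) := by rw [F.mk_eq x (F.mem x), hx']
    have h2 : (t₀, (F.triv x x).2) ∈ (F.triv x).target := by
      rw [← h1]; exact (F.triv x).map_source (F.mem x)
    have h3 := (hvol x t₀ _ h2).1
    have h4 : ∀ᶠ q in 𝓝 (t₀, (F.triv x x).2), q ∈ (F.triv x).target ∧
        ‖vol x q‖ < ‖vol x (t₀, (F.triv x x).2)‖ + 1 :=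
      Filter.Eventually.and ((F.triv x).open_target.mem_nhds h2)
        (h3.norm.eventually (gt_mem_nhds (by linarith)))
    obtain ⟨A, hA, B, hB, hAB⟩ := mem_nhds_prod_iff.1 h4
    obtain ⟨r, hr, hrB⟩ := Metric.mem_nhds_iff.1 hB
    refine ⟨A, hA, r, hr, ‖vol x (t₀, (F.triv x x).2)‖ + 1, by positivity, fun t ht w hw => ?_⟩
    have h5 := hAB (⟨ht, hrB hw⟩ : (t, w) ∈ A ×ˢ B)
    exact ⟨h5.1, h5.2.le⟩
  choose A hA r hr M hM0 hM using hx
  have hcomp : IsCompact (F.p ⁻¹' {t₀}) := hp.isCompact_preimage isCompact_singleton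
  set W : F.p ⁻¹' {t₀} → Set E := fun x =>
    (F.triv x.1).source ∩ F.triv x.1 ⁻¹' {q | q.2 ∈ ball (F.triv x.1 x.1).2 (r x)} with hW
  have hWo : ∀ x, IsOpen (W x) := fun x =>
    (F.triv x.1).isOpen_inter_preimage (isOpen_ball.preimage continuous_snd)
  have hWx : ∀ x : F.p ⁻¹' {t₀}, x.1 ∈ W x := fun x =>
    ⟨F.mem x.1, mem_ball_self (hr x)⟩
  obtain ⟨τ, hτ⟩ := hcomp.elim_nhds_subcover' (fun x hx => W ⟨x, hx⟩)
    (fun x hx => (hWo ⟨x, hx⟩).mem_nhds (hWx ⟨x, hx⟩))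
  have hfib : ∀ᶠ t in 𝓝 t₀, ∀ y ∈ F.p ⁻¹' {t}, ∃ x ∈ τ, y ∈ W x := by
    refine hp.isClosedMap.eventually_nhds_fiber t₀ fun y hy => ?_
    obtain ⟨x, hx1, hx2⟩ := mem_iUnion₂.1 (hτ hy)
    filter_upwards [(hWo x).mem_nhds hx2] with y' hy' using ⟨x, hx1, hy'⟩
  have hAτ : ∀ᶠ t in 𝓝 t₀, ∀ x ∈ τ, t ∈ A x := by
    rw [Filter.eventually_all_finset]
    exact fun x _ => hA x
  -- the constants
  set M' : ℝ := 1 + ∑ x ∈ τ, M x with hM'
  have hM'0 : 0 < M' := by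
    have : 0 ≤ ∑ x ∈ τ, M x := Finset.sum_nonneg fun x _ => hM0 x
    linarith
  have hM'x : ∀ x ∈ τ, M x ≤ M' := fun x hx => by
    have := Finset.single_le_sum (f := M) (fun x _ => hM0 x) hx
    linarith
  have := volume_haar
  set V : ENNReal := ∑ x ∈ τ, MeasureTheory.volume (ball (F.triv x.1 x.1).2 (r x)) with hV
  have hVtop : V ≠ ⊤ := by
    rw [hV]
    exact (ENNReal.sum_lt_top.2 fun x _ => MeasureTheory.measure_ball_lt_top).ne
  set β : ℝ := (MeasureTheory.volume (ball p0 r0)).toReal with hβ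
  have hβ0 : 0 < β :=
    ENNReal.toReal_pos (Metric.measure_ball_pos _ _ hr0).ne' MeasureTheory.measure_ball_lt_top.ne
  set V' : ℝ := V.toReal with hV'
  have hV'0 : 0 ≤ V' := ENNReal.toReal_nonneg
  refine ⟨√(β / ((M' / m) ^ 2 * (V' + 1))), by positivity, ?_⟩
  filter_upwards [hfib, hAτ] with t hft hAt b hb hsurj lam hlam
  obtain ⟨y₀, -⟩ := hsurj q
  -- the sets and the maps
  set f : F.p ⁻¹' {t₀} → C2 → C2 := fun x u => e (b (pt F t y₀ x.1 u)) with hf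
  set S : F.p ⁻¹' {t₀} → Set C2 := fun x => {w | w ∈ ball (F.triv x.1 x.1).2 (r x) ∧
    b (pt F t y₀ x.1 w) ∈ e.source ∧ f x w ∈ ball p0 r0} with hS
  have hbc : ∀ y, ContinuousAt b y := fun y => (hb y).1
  have key : ∀ x ∈ τ, ∀ w ∈ S x, DifferentiableAt ℂ (f x) w ∧
      ‖(fderiv ℂ (f x) w).det‖ ≤ ‖lam‖ * (M' / m) := by
    rintro x hx w ⟨hw1, hw2, hw3⟩
    obtain ⟨h1, h2⟩ := hM x t (hAt x hx) w hw1
    obtain ⟨h3, h4⟩ := local_ratio hvol hb hlam y₀ h1 he hw2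
    refine ⟨h3, ?_⟩
    have h5 := (hball _ hw3).2
    have h6 : ‖X.vol e (f x w)‖ * ‖(fderiv ℂ (f x) w).det‖ = ‖lam‖ * ‖vol x.1 (t, w)‖ := by
      rw [← norm_mul, ← norm_mul]
      exact congrArg norm h4
    have h7 : m * ‖(fderiv ℂ (f x) w).det‖ ≤ ‖lam‖ * M' := by
      calc m * ‖(fderiv ℂ (f x) w).det‖ ≤ ‖X.vol e (f x w)‖ * ‖(fderiv ℂ (f x) w).det‖ := by
            gcongr
        _ = ‖lam‖ * ‖vol x.1 (t, w)‖ := h6
        _ ≤ ‖lam‖ * M' := by
            gcongr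
            exact h2.trans (hM'x x hx)
    rw [mul_div_assoc', le_div_iff₀ hm0]
    linarith
  have hSo : ∀ x ∈ τ, IsOpen (S x) := by
    intro x hx
    rw [isOpen_iff_mem_nhds]
    rintro w ⟨hw1, hw2, hw3⟩
    obtain ⟨h1, -⟩ := hM x t (hAt x hx) w hw1
    have c1 : ContinuousAt (fun u => b (pt F t y₀ x.1 u)) w :=
      ContinuousAt.comp (g := b) (f := pt F t y₀ x.1) (hbc _) (pt_cont F y₀ h1)
    have c2 : ContinuousAt (f x) w :=
      ContinuousAt.comp (g := e) (f := fun u => b (pt F t y₀ x.1 u)) (e.continuousAt hw2) c1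
    filter_upwards [isOpen_ball.mem_nhds hw1, c1.eventually (e.open_source.mem_nhds hw2),
      c2.eventually (isOpen_ball.mem_nhds hw3)] with u h2 h3 h4 using ⟨h2, h3, h4⟩
  have hcov : ball p0 r0 ⊆ ⋃ x ∈ τ, f x '' S x := by
    intro z hz
    have hzt := (hball z hz).1
    obtain ⟨y, hy⟩ := hsurj (e.symm z)
    obtain ⟨x, hx, hyW⟩ := hft y.1 y.2
    have h1 : F.triv x.1 y.1 = (t, (F.triv x.1 y.1).2) := by
      rw [F.mk_eq x.1 hyW.1, y.2]
    have h2 : (t, (F.triv x.1 y.1).2) ∈ (F.triv x.1).target := by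
      rw [← h1]; exact (F.triv x.1).map_source hyW.1
    have h3 : pt F t y₀ x.1 (F.triv x.1 y.1).2 = y := by
      apply Fib.ext
      rw [pt_val F y₀ h2, ← h1, (F.triv x.1).left_inv hyW.1]
    have h4 : f x (F.triv x.1 y.1).2 = z := by
      simp only [hf]
      rw [h3, hy, e.right_inv hzt]
    refine mem_iUnion₂.2 ⟨x, hx, (F.triv x.1 y.1).2, ⟨hyW.2, ?_, ?_⟩, h4⟩
    · rw [h3, hy]; exact e.map_target hzt
    · rw [h4]; exact hz
  have hmeas := measure_part τ S hSo f (fun x => (F.triv x.1 x.1).2) r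
    (fun x _ w hw => hw.1) (fun x hx w hw => (key x hx w hw).1)
    (K := ‖lam‖ * (M' / m)) (fun x hx w hw => (key x hx w hw).2) (ball p0 r0) hcov
  have h1 : β ≤ (‖lam‖ * (M' / m)) ^ 2 * V' := by
    have h2 := ENNReal.toReal_mono (ENNReal.mul_ne_top ENNReal.ofReal_ne_top hVtop) hmeas
    rwa [ENNReal.toReal_mul, ENNReal.toReal_ofReal (by positivity)] at h2
  have h2 : β / ((M' / m) ^ 2 * (V' + 1)) ≤ ‖lam‖ ^ 2 := by
    rw [div_le_iff₀ (by positivity)]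
    calc β ≤ (‖lam‖ * (M' / m)) ^ 2 * V' := h1
      _ ≤ (‖lam‖ * (M' / m)) ^ 2 * (V' + 1) := by gcongr; linarith
      _ = ‖lam‖ ^ 2 * ((M' / m) ^ 2 * (V' + 1)) := by ring
  calc √(β / ((M' / m) ^ 2 * (V' + 1))) ≤ √(‖lam‖ ^ 2) := Real.sqrt_le_sqrt h2
    _ = ‖lam‖ := Real.sqrt_sq (norm_nonneg _)

end Vale.Agent.P290.R2.H760
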