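import Vale.Agent.P290.R2.H596.Spec

/-! R2b and R2c: small tubes are near the graph, and closeness is an open condition. -/

open Set Filter Metric
open scoped Topology

namespace Vale.Agent.P290.R2.H760

open Vale.Agent.P290 Vale.Agent.P290.K Vale.Agent.P290.H580 Vale.Agent.P290.H805
open Vale.Agent.P290.R2.H596

theorem clOpen : StClOpen := by
  intro T E _ _ F V _ _ t₀ D δ r q x h
  have := D.finite
  have key : ∀ j : D.J, ∀ᶠ p : (V × C2) × E in 𝓝 (q, x), p.1.1 ∈ D.N j →
      p.2 ∈ (F.triv (D.x j)).source ∧ ‖D.k j r p.1.1 p.2 - p.1.2‖ < δ := by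
    intro j
    by_cases hj : q.1 ∈ D.N j
    · obtain ⟨h1, h2⟩ := h j hj
      have hO := D.sub j hj
      have c0 : ContinuousAt (fun p : (V × C2) × E => p.1.1) (q, x) :=
        (continuous_fst.comp continuous_fst).continuousAt
      have c1 : ContinuousAt (fun p : (V × C2) × E => D.ζ j p.1.1) (q, x) :=
        ContinuousAt.comp (g := D.ζ j) (f := fun p : (V × C2) × E => p.1.1) (x := (q, x))
          (D.ζ_diff j _ hO).continuousAt c0
      have c2 : ContinuousAt (fun p : (V × C2) × E => D.c j p.1.1) (q, x) :=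
        ContinuousAt.comp (g := D.c j) (f := fun p : (V × C2) × E => p.1.1) (x := (q, x))
          (D.c_diff hO).continuousAt c0
      have c3 : ContinuousAt (fun p : (V × C2) × E => (F.triv (D.x j) p.2).2) (q, x) :=
        continuous_snd.continuousAt.comp
          (ContinuousAt.comp (g := F.triv (D.x j)) (f := fun p : (V × C2) × E => p.2)
            (x := (q, x)) ((F.triv (D.x j)).continuousAt h1) continuous_snd.continuousAt)
      have c4' : ContinuousAt (fun p : (V × C2) × E =>
          D.ζ j p.1.1 ((F.triv (D.x j) p.2).2 - D.c j p.1.1)) (q, x) := c1.clm_apply (c3.sub c2)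
      have c4 : ContinuousAt (fun p : (V × C2) × E => D.k j r p.1.1 p.2) (q, x) :=
        ContinuousAt.const_smul c4' (((r⁻¹ : ℝ) : ℂ))
      have c5 : ContinuousAt (fun p : (V × C2) × E => ‖D.k j r p.1.1 p.2 - p.1.2‖) (q, x) :=
        (c4.sub (continuous_snd.comp continuous_fst).continuousAt).norm
      have e1 : ∀ᶠ p : (V × C2) × E in 𝓝 (q, x), p.2 ∈ (F.triv (D.x j)).source :=
        (continuous_snd.continuousAt (x := (q, x))).eventually
          ((F.triv (D.x j)).open_source.mem_nhds h1)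
      have e2 : ∀ᶠ p : (V × C2) × E in 𝓝 (q, x), ‖D.k j r p.1.1 p.2 - p.1.2‖ < δ :=
        c5.eventually (Iio_mem_nhds h2)
      filter_upwards [e1, e2] with p h3 h4 _ using ⟨h3, h4⟩
    · have h3 : (D.N j)ᶜ ∈ 𝓝 q.1 := (D.compact j).isClosed.isOpen_compl.mem_nhds hj
      have c0 : ContinuousAt (fun p : (V × C2) × E => p.1.1) (q, x) :=
        (continuous_fst.comp continuous_fst).continuousAt
      filter_upwards [c0.eventually h3] with p hp hp'
      exact absurd hp' hp
  filter_upwards [eventually_all.2 key] with p hp j hj using hp j hj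

theorem near : StNear := by
  intro T E _ _ F V _ _ _ t₀ D K hK hKN 𝒪 h𝒪
  have := D.finite
  obtain ⟨L, hL, hLb⟩ := D.exists_bound
  have h1 : ∀ j, ∃ σ > 0, ∀ κ : C2, ‖κ‖ < σ → ∀ z ∈ K ∩ D.N j,
      (z, (F.triv (D.x j)).symm (t₀, D.c j z + κ)) ∈ 𝒪 := by
    intro j
    have hc : IsCompact (K ∩ D.N j) := hK.inter (D.compact j)
    have h2 : ∀ᶠ q : C2 in 𝓝 (0 : C2), ∀ z ∈ K ∩ D.N j,
        (z, (F.triv (D.x j)).symm (t₀, D.c j z + q)) ∈ 𝒪 := by
      refine hc.eventually_forall_of_forall_eventually fun z hz => ?_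
      have hO := D.sub j hz.2
      have c1 : ContinuousAt (fun x : C2 × V => ((t₀, D.c j x.2 + x.1) : T × C2)) (0, z) := by
        refine continuousAt_const.prodMk (ContinuousAt.add ?_ continuous_fst.continuousAt)
        exact ContinuousAt.comp (g := D.c j) (f := fun x : C2 × V => x.2)
          (x := (0, z)) (D.c_diff hO).continuousAt continuous_snd.continuousAt
      have c2 : ContinuousAt (F.triv (D.x j)).symm (t₀, D.c j z + 0) := by
        rw [add_zero]; exact (F.triv (D.x j)).continuousAt_symm (D.c_mem hO)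
      have c3 : ContinuousAt (fun x : C2 × V =>
          (F.triv (D.x j)).symm (t₀, D.c j x.2 + x.1)) (0, z) :=
        ContinuousAt.comp (g := (F.triv (D.x j)).symm)
          (f := fun x : C2 × V => ((t₀, D.c j x.2 + x.1) : T × C2)) (x := (0, z)) c2 c1
      have c4 : ContinuousAt (fun x : C2 × V =>
          ((x.2, (F.triv (D.x j)).symm (t₀, D.c j x.2 + x.1)) : V × E)) (0, z) :=
        continuous_snd.continuousAt.prodMk c3
      refine c4.eventually ?_
      simp only [add_zero, D.symm_c hO]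
      exact h𝒪 z hz.1
    obtain ⟨σ, hσ, hσB⟩ := Metric.mem_nhds_iff.1 h2
    exact ⟨σ, hσ, fun κ hκ => hσB (by simpa using hκ)⟩
  choose σ hσ h2 using h1
  obtain ⟨σ₀, hσ₀, hle⟩ : ∃ σ₀ > 0, ∀ q, σ₀ ≤ σ q := by
    rcases isEmpty_or_nonempty D.J with h | h
    · exact ⟨1, one_pos, fun j => isEmptyElim j⟩
    · obtain ⟨j, hj⟩ := Finite.exists_min σ
      exact ⟨σ j, hσ j, hj⟩
  refine ⟨σ₀ / (2 * L), by positivity, fun r hr0 hr z hz w hw x hx hcl => ?_⟩
  obtain ⟨j, hj⟩ := mem_iUnion.1 (hKN hz)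
  have hj' : z ∈ D.N j := interior_subset hj
  obtain ⟨h4, h5⟩ := hcl j hj'
  simp only at h5
  have h6 := D.eq_symm hr0 (D.sub j hj') h4
  rw [hx] at h6
  rw [h6]
  refine h2 j _ ?_ z ⟨hz, hj'⟩
  have h7 : ‖D.k j r z x‖ ≤ 2 := by
    have e : D.k j r z x = (D.k j r z x - w) + w := by abel
    rw [e]
    refine (norm_add_le _ _).trans ?_
    linarith
  rw [norm_smul, Complex.norm_real, Real.norm_of_nonneg hr0.le]
  have h8 : r * (2 * L) < σ₀ := by rwa [lt_div_iff₀ (by positivity)] at hr
  calc r * ‖D.η j z (D.k j r z x)‖ ≤ r * (L * 2) := by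
        refine mul_le_mul_of_nonneg_left ?_ hr0.le
        refine (ContinuousLinearMap.le_opNorm _ _).trans ?_
        exact mul_le_mul (hLb j z hj').1 h7 (norm_nonneg _) hL.le
    _ < σ j := by
        have := hle j
        linarith

end Vale.Agent.P290.R2.H760
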